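import Mathlib

/-!
# One step inequalities for Lemma E (helper43)

`psi A a = ‖A‖² / a` is the perspective of the square.  All lemmas allow `a = 0` when `A = 0`.
-/

open Finset

namespace Vale.Agent.P091.LE.H43

/-- perspective of the square -/
noncomputable def psi (A : ℂ) (a : ℝ) : ℝ := ‖A‖ ^ 2 / a

theorem psi_nonneg (A : ℂ) {a : ℝ} (ha : 0 ≤ a) : 0 ≤ psi A a := by
  unfold psi
  positivity

theorem psi_le {A : ℂ} {a : ℝ} (h : ‖A‖ ≤ a) : psi A a ≤ ‖A‖ := by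
  unfold psi
  have h0 : 0 ≤ a := (norm_nonneg A).trans h
  rcases eq_or_lt_of_le h0 with ha | ha
  · rw [← ha, div_zero]
    exact norm_nonneg A
  · rw [div_le_iff₀ ha, sq]
    exact mul_le_mul_of_nonneg_left h (norm_nonneg A)

theorem psi_le' {A : ℂ} {a : ℝ} (h : ‖A‖ ≤ a) : psi A a ≤ a := (psi_le h).trans h

theorem nsq (z : ℂ) : ‖z‖ ^ 2 = z.re ^ 2 + z.im ^ 2 := by
  rw [← Complex.normSq_eq_norm_sq, Complex.normSq_apply]
  ring

/-- variational lower bound -/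
theorem psi_ge {A : ℂ} {a : ℝ} (ha : 0 ≤ a) (h0 : a = 0 → A = 0) (w : ℂ) :
    2 * (w.re * A.re + w.im * A.im) - a * ‖w‖ ^ 2 ≤ psi A a := by
  rcases eq_or_lt_of_le ha with ha' | ha'
  · rw [h0 ha'.symm, ← ha']
    simp [psi]
  · unfold psi
    rw [le_div_iff₀ ha', nsq, nsq]
    nlinarith [sq_nonneg (A.re - a * w.re), sq_nonneg (A.im - a * w.im)]

theorem zero_of {A : ℂ} {a : ℝ} (h : ‖A‖ ≤ a) : a = 0 → A = 0 := by
  intro h0
  rw [h0] at h
  exact norm_le_zero_iff.1 h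

/-- gradient bound on the cone -/
theorem psi_lip_aux {A1 A2 : ℂ} {a1 a2 : ℝ} (h1 : ‖A1‖ ≤ a1) (h2 : ‖A2‖ ≤ a2) (h : a2 ≤ a1) :
    |psi A1 a1 - psi A2 a2| ≤ 2 * ‖A1 - A2‖ + |a1 - a2| := by
  have n1 := norm_nonneg A1
  have n2 := norm_nonneg A2
  have hd : |‖A1‖ - ‖A2‖| ≤ ‖A1 - A2‖ := abs_norm_sub_norm_le A1 A2
  rcases eq_or_lt_of_le (n2.trans h2) with ha2 | ha2
  · -- a2 = 0
    have hA2 : A2 = 0 := zero_of h2 ha2.symm
    rw [hA2, ← ha2]
    have : psi 0 0 = 0 := by simp [psi]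
    rw [this, sub_zero, sub_zero, sub_zero, abs_of_nonneg (psi_nonneg A1 (n1.trans h1))]
    have := psi_le h1
    have := abs_nonneg a1
    linarith
  · have ha1 : 0 < a1 := lt_of_lt_of_le ha2 h
    unfold psi
    set x := ‖A1‖
    set y := ‖A2‖
    have e : x ^ 2 / a1 - y ^ 2 / a2 = (x - y) * ((x + y) / a1) - (y / a2) * (y / a1) * (a1 - a2) := by
      field_simp
      ring
    rw [e]
    have b1 : (x + y) / a1 ≤ 2 := by
      rw [div_le_iff₀ ha1]
      linarith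
    have b1' : 0 ≤ (x + y) / a1 := by positivity
    have b2 : y / a2 ≤ 1 := by
      rw [div_le_one ha2]; exact h2
    have b2' : 0 ≤ y / a2 := by positivity
    have b3 : y / a1 ≤ 1 := by
      rw [div_le_one ha1]; linarith
    have b3' : 0 ≤ y / a1 := by positivity
    have b4 : (y / a2) * (y / a1) ≤ 1 := mul_le_one₀ b2 b3' b3
    have b4' : 0 ≤ (y / a2) * (y / a1) := mul_nonneg b2' b3'
    calc |(x - y) * ((x + y) / a1) - (y / a2) * (y / a1) * (a1 - a2)|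
        ≤ |(x - y) * ((x + y) / a1)| + |(y / a2) * (y / a1) * (a1 - a2)| := abs_sub _ _
      _ = |x - y| * ((x + y) / a1) + (y / a2) * (y / a1) * |a1 - a2| := by
          rw [abs_mul, abs_mul, abs_of_nonneg b1', abs_of_nonneg b4']
      _ ≤ ‖A1 - A2‖ * 2 + 1 * |a1 - a2| := by
          apply add_le_add
          · exact mul_le_mul hd b1 b1' (norm_nonneg _)
          · exact mul_le_mul_of_nonneg_right b4 (abs_nonneg _)
      _ = 2 * ‖A1 - A2‖ + |a1 - a2| := by ring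

theorem psi_lip {A1 A2 : ℂ} {a1 a2 : ℝ} (h1 : ‖A1‖ ≤ a1) (h2 : ‖A2‖ ≤ a2) :
    |psi A1 a1 - psi A2 a2| ≤ 2 * ‖A1 - A2‖ + |a1 - a2| := by
  rcases le_total a2 a1 with h | h
  · exact psi_lip_aux h1 h2 h
  · have := psi_lip_aux h2 h1 h
    rwa [abs_sub_comm, norm_sub_rev, abs_sub_comm a2 a1] at this

/-- ratio, `0` when the weight is `0` -/
noncomputable def rat (A : ℂ) (a : ℝ) : ℂ := A / (a : ℂ)

theorem rat_mul {A : ℂ} {a : ℝ} (h : a = 0 → A = 0) : rat A a * (a : ℂ) = A := by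
  unfold rat
  rcases eq_or_ne a 0 with ha | ha
  · rw [ha, h ha]; simp
  · have : (a : ℂ) ≠ 0 := by exact_mod_cast ha
    field_simp

theorem norm_rat_le {A : ℂ} {a : ℝ} (h : ‖A‖ ≤ a) : ‖rat A a‖ ≤ 1 := by
  unfold rat
  rw [norm_div, Complex.norm_real, Real.norm_eq_abs, abs_of_nonneg ((norm_nonneg A).trans h)]
  exact div_le_one_of_le₀ h ((norm_nonneg A).trans h)

/-- the mean increment of `psi` controls `‖r‖²/a`, `r = dA - σ da` -/
theorem psi_gap {A0 A1 : ℂ} {a0 a1 : ℝ} (h0 : ‖A0‖ ≤ a0) (h1 : ‖A1‖ ≤ a1) :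
    ‖(A0 - A1) / 2 - rat ((A0 + A1) / 2) ((a0 + a1) / 2) * ((a0 - a1) / 2 : ℝ)‖ ^ 2
        / ((a0 + a1) / 2) ≤
      (psi A0 a0 + psi A1 a1) / 2 - psi ((A0 + A1) / 2) ((a0 + a1) / 2) := by
  have p0 : 0 ≤ a0 := (norm_nonneg A0).trans h0
  have p1 : 0 ≤ a1 := (norm_nonneg A1).trans h1
  set a := (a0 + a1) / 2 with ha
  set A := (A0 + A1) / 2 with hA
  have pa : 0 ≤ a := by positivity
  have hAa : ‖A‖ ≤ a := by
    rw [hA, norm_div, ha]
    have := norm_add_le A0 A1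
    simp only [Complex.norm_ofNat]
    linarith
  rcases eq_or_lt_of_le pa with ha' | ha'
  · -- everything vanishes
    have e0 : a0 = 0 := by linarith [ha ▸ ha'.symm]
    have e1 : a1 = 0 := by linarith [ha ▸ ha'.symm]
    rw [← ha', div_zero, zero_of h0 e0, zero_of h1 e1, e0, e1]
    have : psi (0:ℂ) 0 = 0 := by simp [psi]
    rw [this]
    have hA0 : A = 0 := zero_of hAa ha'.symm
    rw [hA0, this]
    norm_num
  · set σ := rat A a with hσ
    have hσA : σ * (a : ℂ) = A := rat_mul (zero_of hAa)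
    set r := (A0 - A1) / 2 - σ * ((a0 - a1) / 2 : ℝ) with hr
    -- the test points
    have g0 := psi_ge p0 (zero_of h0) (σ + r / (a : ℂ))
    have g1 := psi_ge p1 (zero_of h1) (σ - r / (a : ℂ))
    have eA0 : A0 = σ * (a0 : ℂ) + r := by
      have : A0 = A + (A0 - A1) / 2 := by rw [hA]; ring
      rw [this, ← hσA, hr, ha]
      push_cast
      ring
    have eA1 : A1 = σ * (a1 : ℂ) - r := by
      have : A1 = A - (A0 - A1) / 2 := by rw [hA]; ring
      rw [this, ← hσA, hr, ha]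
      push_cast
      ring
    have epsi : psi A a = a * ‖σ‖ ^ 2 := by
      unfold psi
      rw [← hσA, norm_mul, Complex.norm_real, Real.norm_eq_abs, abs_of_pos ha', mul_pow]
      field_simp
    have er : ‖r‖ ^ 2 / a = a * ‖r / (a : ℂ)‖ ^ 2 := by
      rw [norm_div, Complex.norm_real, Real.norm_eq_abs, abs_of_pos ha', div_pow]
      field_simp
    rw [epsi, er]
    set s := r / (a : ℂ) with hs
    have hr' : r = s * (a : ℂ) := by
      rw [hs]
      have : (a : ℂ) ≠ 0 := by exact_mod_cast ha'.ne'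
      field_simp
    rw [hr'] at eA0 eA1
    have re0 : A0.re = σ.re * a0 + s.re * a := by
      rw [eA0]; simp
    have im0 : A0.im = σ.im * a0 + s.im * a := by
      rw [eA0]; simp
    have re1 : A1.re = σ.re * a1 - s.re * a := by
      rw [eA1]; simp
    have im1 : A1.im = σ.im * a1 - s.im * a := by
      rw [eA1]; simp
    rw [nsq, re0, im0, Complex.add_re, Complex.add_im] at g0
    rw [nsq, re1, im1, Complex.sub_re, Complex.sub_im] at g1
    rw [nsq, nsq]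
    have haa : a0 + a1 = 2 * a := by rw [ha]; ring
    nlinarith [g0, g1, haa]

/-! ## the real inner product of complex numbers -/

/-- `Re (conj z * w)` -/
def ip (z w : ℂ) : ℝ := z.re * w.re + z.im * w.im

theorem ip_le (z w : ℂ) : |ip z w| ≤ ‖z‖ * ‖w‖ := by
  unfold ip
  rw [← Real.sqrt_sq_eq_abs]
  apply Real.sqrt_le_iff.2
  refine ⟨by positivity, ?_⟩
  rw [mul_pow, nsq, nsq]
  nlinarith [sq_nonneg (z.re * w.im - z.im * w.re)]

theorem ip_le' (z w : ℂ) : ip z w ≤ ‖z‖ * ‖w‖ := (le_abs_self _).trans (ip_le z w)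

theorem neg_ip_le (z w : ℂ) : -ip z w ≤ ‖z‖ * ‖w‖ := (neg_le_abs _).trans (ip_le z w)

/-! ## Huber function -/

/-- Huber function with threshold `T` -/
noncomputable def hub (T : ℝ) (z : ℂ) : ℝ := if ‖z‖ ≤ T then ‖z‖ ^ 2 else 2 * T * ‖z‖ - T ^ 2

theorem hub_of_le {T : ℝ} {z : ℂ} (h : ‖z‖ ≤ T) : hub T z = ‖z‖ ^ 2 := if_pos h

theorem hub_nonneg {T : ℝ} (hT : 0 ≤ T) (z : ℂ) : 0 ≤ hub T z := by
  unfold hub
  split_ifs with h
  · positivity
  · push Not at h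
    nlinarith

theorem hub_le {T : ℝ} (hT : 0 ≤ T) (z : ℂ) : hub T z ≤ 2 * T * ‖z‖ := by
  unfold hub
  split_ifs with h
  · nlinarith [norm_nonneg z]
  · nlinarith [sq_nonneg T]

theorem hub_le_sq (T : ℝ) (z : ℂ) : hub T z ≤ ‖z‖ ^ 2 := by
  unfold hub
  split_ifs with h
  · exact le_rfl
  · nlinarith [sq_nonneg (‖z‖ - T)]

/-- subgradient of the Huber function -/
theorem hub_sub {T : ℝ} (hT : 0 ≤ T) (z0 : ℂ) :
    ∃ g : ℂ, ‖g‖ ≤ 2 * T ∧ ∀ z, hub T z0 + ip g (z - z0) ≤ hub T z := by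
  have hn0 := norm_nonneg z0
  by_cases h0 : ‖z0‖ ≤ T
  · refine ⟨2 * z0, ?_, ?_⟩
    · rw [norm_mul]
      simp only [Complex.norm_ofNat]
      linarith
    · intro z
      have hip : ip (2 * z0) (z - z0) = 2 * ip z0 z - 2 * ‖z0‖ ^ 2 := by
        unfold ip
        rw [nsq]
        simp
        ring
      rw [hub_of_le h0, hip]
      have hn := norm_nonneg z
      by_cases h : ‖z‖ ≤ T
      · rw [hub_of_le h]
        have := ip_le' z0 z
        nlinarith [sq_nonneg (‖z‖ - ‖z0‖)]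
      · unfold hub
        rw [if_neg h]
        push Not at h
        have := ip_le' z0 z
        nlinarith [mul_nonneg (sub_nonneg.2 h0) (sub_nonneg.2 h.le), sq_nonneg (T - ‖z0‖)]
  · push Not at h0
    have hz : 0 < ‖z0‖ := lt_of_le_of_lt hT h0
    refine ⟨(2 * T / ‖z0‖ : ℝ) * z0, ?_, ?_⟩
    · rw [norm_mul, Complex.norm_real, Real.norm_eq_abs, abs_of_nonneg (by positivity)]
      rw [div_mul_cancel₀ _ hz.ne']
    · intro z
      have hip : ip ((2 * T / ‖z0‖ : ℝ) * z0) (z - z0) = 2 * T / ‖z0‖ * (ip z0 z - ‖z0‖ ^ 2) := by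
        unfold ip
        rw [nsq]
        simp
        ring
      have hip2 : 2 * T / ‖z0‖ * (ip z0 z - ‖z0‖ ^ 2) ≤ 2 * T * ‖z‖ - 2 * T * ‖z0‖ := by
        have h1 : ip z0 z - ‖z0‖ ^ 2 ≤ ‖z0‖ * (‖z‖ - ‖z0‖) := by
          have := ip_le' z0 z
          nlinarith
        calc 2 * T / ‖z0‖ * (ip z0 z - ‖z0‖ ^ 2) ≤ 2 * T / ‖z0‖ * (‖z0‖ * (‖z‖ - ‖z0‖)) :=
              mul_le_mul_of_nonneg_left h1 (by positivity)
          _ = 2 * T * ‖z‖ - 2 * T * ‖z0‖ := by field_simp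
      rw [hip]
      have e0 : hub T z0 = 2 * T * ‖z0‖ - T ^ 2 := by
        unfold hub
        rw [if_neg (not_le.2 h0)]
      rw [e0]
      unfold hub
      split_ifs with h
      · nlinarith [sq_nonneg (‖z‖ - T)]
      · linarith

/-- perspective of the Huber function -/
noncomputable def pH (T : ℝ) (M : ℂ) (a : ℝ) : ℝ := a * hub T (rat M a)

theorem pH_nonneg {T : ℝ} (hT : 0 ≤ T) (M : ℂ) {a : ℝ} (ha : 0 ≤ a) : 0 ≤ pH T M a :=
  mul_nonneg ha (hub_nonneg hT _)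

theorem pH_le {T : ℝ} (hT : 0 ≤ T) {M : ℂ} {a : ℝ} (ha : 0 ≤ a) (h0 : a = 0 → M = 0) :
    pH T M a ≤ 2 * T * ‖M‖ := by
  unfold pH
  have h1 := hub_le hT (rat M a)
  have h2 : a * ‖rat M a‖ = ‖M‖ := by
    conv_rhs => rw [← rat_mul h0]
    rw [norm_mul, Complex.norm_real, Real.norm_eq_abs, abs_of_nonneg ha, mul_comm]
  calc a * hub T (rat M a) ≤ a * (2 * T * ‖rat M a‖) := mul_le_mul_of_nonneg_left h1 ha
    _ = 2 * T * (a * ‖rat M a‖) := by ring
    _ = 2 * T * ‖M‖ := by rw [h2]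

/-- on the cone `‖M‖ ≤ T a` the perspective is `psi` -/
theorem pH_eq {T : ℝ} {M : ℂ} {a : ℝ} (ha : 0 ≤ a) (h : ‖M‖ ≤ T * a) : pH T M a = psi M a := by
  rcases eq_or_lt_of_le ha with ha' | ha'
  · unfold pH psi
    rw [← ha', zero_mul, div_zero]
  · have h1 : ‖rat M a‖ = ‖M‖ / a := by
      unfold rat
      rw [norm_div, Complex.norm_real, Real.norm_eq_abs, abs_of_pos ha']
    have h2 : ‖rat M a‖ ≤ T := by
      rw [h1, div_le_iff₀ ha']
      exact h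
    unfold pH psi
    rw [hub_of_le h2, h1]
    field_simp

theorem pH_le_psi (T : ℝ) {M : ℂ} {a : ℝ} (ha : 0 ≤ a) : pH T M a ≤ psi M a := by
  rcases eq_or_lt_of_le ha with ha' | ha'
  · unfold pH psi
    rw [← ha', zero_mul, div_zero]
  · unfold pH psi
    have h1 : ‖rat M a‖ = ‖M‖ / a := by
      unfold rat
      rw [norm_div, Complex.norm_real, Real.norm_eq_abs, abs_of_pos ha']
    have := hub_le_sq T (rat M a)
    rw [h1] at this
    calc a * hub T (rat M a) ≤ a * (‖M‖ / a) ^ 2 := mul_le_mul_of_nonneg_left this ha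
      _ = ‖M‖ ^ 2 / a := by field_simp

/-- linear lower bound of the perspective -/
theorem pH_ge {T : ℝ} {g z0 : ℂ} (hg : ∀ z, hub T z0 + ip g (z - z0) ≤ hub T z) {M : ℂ} {a : ℝ}
    (ha : 0 ≤ a) (h0 : a = 0 → M = 0) :
    a * hub T z0 + ip g (M - a * z0) ≤ pH T M a := by
  unfold pH
  have h1 := mul_le_mul_of_nonneg_left (hg (rat M a)) ha
  have h2 : a * ip g (rat M a - z0) = ip g (M - a * z0) := by
    conv_rhs => rw [← rat_mul h0]
    unfold ip
    simp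
    ring
  rw [mul_add, h2] at h1
  exact h1

/-- BAD STEP (Jensen) -/
theorem pH_bad {T : ℝ} (hT : 0 ≤ T) {M M0 M1 x : ℂ} {a0 a1 : ℝ} (h0 : 0 ≤ a0) (h1 : 0 ≤ a1)
    (z0 : a0 = 0 → M0 = 0) (z1 : a1 = 0 → M1 = 0) (zz : (a0 + a1) / 2 = 0 → M = 0)
    (hx : (M0 + M1) / 2 = M + x) :
    pH T M ((a0 + a1) / 2) - 2 * T * ‖x‖ ≤ (pH T M0 a0 + pH T M1 a1) / 2 := by
  set a := (a0 + a1) / 2 with ha
  obtain ⟨g, hg1, hg⟩ := hub_sub hT (rat M a)
  have k0 := pH_ge hg h0 z0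
  have k1 := pH_ge hg h1 z1
  have e1 : ip g (M0 - a0 * rat M a) + ip g (M1 - a1 * rat M a) = 2 * ip g x := by
    have h3 : (M0 - a0 * rat M a) + (M1 - a1 * rat M a) = 2 * x := by
      have h4 : M0 + M1 = 2 * (M + x) := by
        rw [← hx]; ring
      have h5 : ((a0:ℂ) + a1) = 2 * (a:ℂ) := by
        rw [ha]; push_cast; ring
      have h6 := rat_mul zz
      calc (M0 - a0 * rat M a) + (M1 - a1 * rat M a)
          = (M0 + M1) - ((a0:ℂ) + a1) * rat M a := by ring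
        _ = 2 * (M + x) - 2 * (rat M a * (a:ℂ)) := by rw [h4, h5]; ring
        _ = 2 * x := by rw [h6]; ring
    have h7 : ∀ u v : ℂ, ip g u + ip g v = ip g (u + v) := by
      intro u v
      unfold ip
      simp
      ring
    rw [h7, h3]
    unfold ip
    simp
    ring
  have e2 : -(ip g x) ≤ 2 * T * ‖x‖ :=
    (neg_ip_le g x).trans (mul_le_mul_of_nonneg_right hg1 (norm_nonneg x))
  have e3 : pH T M a = a * hub T (rat M a) := rfl
  have e4 : a0 + a1 = 2 * a := by rw [ha]; ring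
  rw [e3]
  have e5 : (a0 + a1) * hub T (rat M a) = 2 * a * hub T (rat M a) := by rw [e4]
  linarith [k0, k1, e1, e2, e5]

/-- removal of mass: the perspective increases at most by `2T ‖M' - M‖` when `a` decreases -/
theorem pH_jump {T : ℝ} (hT : 0 ≤ T) {M M' : ℂ} {a a' : ℝ} (ha : 0 ≤ a) (haa : a ≤ a')
    (h0 : a = 0 → M = 0) (h0' : a' = 0 → M' = 0) :
    pH T M' a' - pH T M a ≤ 2 * T * ‖M' - M‖ := by
  obtain ⟨g, hg1, hg⟩ := hub_sub hT (rat M' a')
  have k0 := pH_ge hg ha h0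
  have k1 := hg 0
  have e0 : hub T 0 = 0 := by
    rw [hub_of_le (by simpa using hT)]
    simp
  have e1 : pH T M' a' = a' * hub T (rat M' a') := rfl
  have e2 : rat M' a' * (a' : ℂ) = M' := rat_mul h0'
  have e3 : ip g (M - a * rat M' a') = (a' - a) * ip g (rat M' a') - ip g (M' - M) := by
    have : M - a * rat M' a' = (M - M') + ((a' - a : ℝ) : ℂ) * rat M' a' := by
      push_cast
      linear_combination -e2
    rw [this]
    unfold ip
    simp
    ring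
  have e4 : ip g (0 - rat M' a') = -ip g (rat M' a') := by
    unfold ip
    simp
    ring
  rw [e0, e4] at k1
  have e5 : ip g (M' - M) ≤ 2 * T * ‖M' - M‖ :=
    (ip_le' g _).trans (mul_le_mul_of_nonneg_right hg1 (norm_nonneg _))
  have e6 : (a' - a) * (hub T (rat M' a') - ip g (rat M' a')) ≤ 0 :=
    mul_nonpos_of_nonneg_of_nonpos (by linarith) (by linarith)
  rw [e1]
  rw [e3] at k0
  nlinarith [k0, e5, e6]

/-- GOOD STEP: `a0 = a + d`, `a1 = a - d` -/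
theorem good_step {μ τ ρ κ M0 M1 : ℂ} {a0 a1 : ℝ} (h0 : 0 ≤ a0) (h1 : 0 ≤ a1)
    (z0 : a0 = 0 → M0 = 0) (z1 : a1 = 0 → M1 = 0)
    (e0 : M0 = a0 * (μ + τ) + ρ + κ) (e1 : M1 = a1 * (μ - τ) - ρ + κ) :
    (a0 + a1) / 2 * ‖τ‖ ^ 2 ≤ ((psi M0 a0 + psi M1 a1) / 2 - (a0 + a1) / 2 * ‖μ‖ ^ 2)
      + 2 * |(a0 - a1) / 2| * (‖μ‖ * ‖τ‖) + 2 * (‖μ‖ * ‖κ‖) + 2 * (‖τ‖ * ‖ρ‖) := by
  have g0 := psi_ge h0 z0 (μ + τ)
  have g1 := psi_ge h1 z1 (μ - τ)
  have b1 : -((a0 - a1) / 2 * ip μ τ) ≤ |(a0 - a1) / 2| * (‖μ‖ * ‖τ‖) := by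
    calc -((a0 - a1) / 2 * ip μ τ) ≤ |(a0 - a1) / 2 * ip μ τ| := neg_le_abs _
      _ = |(a0 - a1) / 2| * |ip μ τ| := abs_mul _ _
      _ ≤ _ := mul_le_mul_of_nonneg_left (ip_le μ τ) (abs_nonneg _)
  have b2 := neg_ip_le μ κ
  have b3 := neg_ip_le τ ρ
  have re0 : M0.re = a0 * (μ.re + τ.re) + ρ.re + κ.re := by rw [e0]; simp
  have im0 : M0.im = a0 * (μ.im + τ.im) + ρ.im + κ.im := by rw [e0]; simp
  have re1 : M1.re = a1 * (μ.re - τ.re) - ρ.re + κ.re := by rw [e1]; simp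
  have im1 : M1.im = a1 * (μ.im - τ.im) - ρ.im + κ.im := by rw [e1]; simp
  rw [nsq, re0, im0, Complex.add_re, Complex.add_im] at g0
  rw [nsq, re1, im1, Complex.sub_re, Complex.sub_im] at g1
  rw [nsq τ, nsq μ]
  unfold ip at b1 b2 b3
  linear_combination (1 / 2) * g0 + (1 / 2) * g1 + 2 * b1 + 2 * b2 + 2 * b3

end Vale.Agent.P091.LE.H43
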