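import Vale.Agent.P091.H413.EDefs
import Vale.Agent.P091.LE.H43.One

/-!
# (e4) of Lemma E : energy of the good pairs (helper43)
-/

open Finset

namespace Vale.Agent.P091.LE.H43

open Vale.Agent.P091.H413

variable {K Q : Type} [Fintype K] [Fintype Q]

/-- the remainder `r = dA - σ dα` -/
noncomputable def rr (s : ESys K Q) (k : K) (q : Q) (v : Node) : ℂ :=
  s.dA k q v - s.A k q v / (s.α k v : ℂ) * (s.dα k v : ℂ)

/-- energy density of `r` -/
noncomputable def dens2 (s : ESys K Q) (v : Node) : ℝ :=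
  ∑ k, ∑ q, s.G q v * ‖rr s k q v‖ ^ 2 / s.α k v

/-- energy density of `dB` -/
noncomputable def dens3 (s : ESys K Q) (v : Node) : ℝ :=
  ∑ k, ∑ q, s.α k v * ‖s.dB k q v‖ ^ 2 / s.G q v

/-- `ρ` -/
noncomputable def rho (s : ESys K Q) (k : K) (v : Node) : ℂ := ∑ q, rr s k q v * s.B k q v

/-- `κ` -/
noncomputable def kapp (s : ESys K Q) (k : K) (v : Node) : ℂ := ∑ q, rr s k q v * s.dB k q v

/-- `μ` -/
noncomputable def muu (s : ESys K Q) (k : K) (v : Node) : ℂ :=
  ∑ q, s.A k q v / (s.α k v : ℂ) * s.B k q v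

section node
variable {s : ESys K Q} {n : ℕ} (hs : s.Ok n) {v : Node} (hv : v.length < n)
include hs hv

theorem al_true (k : K) : s.α' k (true :: v) = s.α k v + s.dα k v := by
  rw [hs.αm k v hv]
  unfold ESys.dα
  ring

theorem al_false (k : K) : s.α' k (false :: v) = s.α k v - s.dα k v := by
  rw [hs.αm k v hv]
  unfold ESys.dα
  ring

theorem G_true (q : Q) : s.G' q (true :: v) = s.G q v + s.dG q v := by
  rw [hs.Gm q v hv]
  unfold ESys.dG
  ring

theorem G_false (q : Q) : s.G' q (false :: v) = s.G q v - s.dG q v := by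
  rw [hs.Gm q v hv]
  unfold ESys.dG
  ring

theorem B_true (k : K) (q : Q) : s.B' k q (true :: v) = s.B k q v + s.dB k q v := by
  rw [hs.Bm k q v hv]
  unfold ESys.dB
  ring

theorem B_false (k : K) (q : Q) : s.B' k q (false :: v) = s.B k q v - s.dB k q v := by
  rw [hs.Bm k q v hv]
  unfold ESys.dB
  ring

theorem A_true (k : K) (q : Q) : s.A' k q (true :: v) = s.A k q v + s.dA k q v := by
  rw [hs.Am k q v hv]
  unfold ESys.dA
  ring

theorem A_false (k : K) (q : Q) : s.A' k q (false :: v) = s.A k q v - s.dA k q v := by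
  rw [hs.Am k q v hv]
  unfold ESys.dA
  ring

theorem sig_al (k : K) (q : Q) : s.A k q v / (s.α k v : ℂ) * (s.α k v : ℂ) = s.A k q v :=
  rat_mul (zero_of (hs.A1 k q v hv))

theorem len_child (b : Bool) : (b :: v).length ≤ n := by
  simp only [List.length_cons]
  omega

theorem al_zero {k : K} (h : s.α k v = 0) :
    s.α' k (true :: v) = 0 ∧ s.α' k (false :: v) = 0 ∧ s.dα k v = 0 := by
  have h1 := hs.α0' k (true :: v) (len_child hs hv true)
  have h2 := hs.α0' k (false :: v) (len_child hs hv false)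
  have h3 := hs.αm k v hv
  rw [h] at h3
  have h4 : s.α' k (true :: v) = 0 := by linarith
  have h5 : s.α' k (false :: v) = 0 := by linarith
  refine ⟨h4, h5, ?_⟩
  unfold ESys.dα
  rw [h4, h5]
  ring

theorem G_zero {q : Q} (h : s.G q v = 0) (k : K) : s.dB k q v = 0 ∧ s.dG q v = 0 := by
  have h1 := hs.G0' q (true :: v) (len_child hs hv true)
  have h2 := hs.G0' q (false :: v) (len_child hs hv false)
  have h3 := hs.Gm q v hv
  rw [h] at h3
  have h4 : s.G' q (true :: v) = 0 := by linarith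
  have h5 : s.G' q (false :: v) = 0 := by linarith
  have h6 := zero_of (hs.B1' k q (true :: v) (len_child hs hv true)) h4
  have h7 := zero_of (hs.B1' k q (false :: v) (len_child hs hv false)) h5
  refine ⟨?_, ?_⟩
  · unfold ESys.dB
    rw [h6, h7]
    simp
  · unfold ESys.dG
    rw [h4, h5]
    ring

theorem rr_zero {k : K} (h : s.α k v = 0) (q : Q) : rr s k q v = 0 := by
  obtain ⟨h1, h2, h3⟩ := al_zero hs hv h
  have h6 := zero_of (hs.A1' k q (true :: v) (len_child hs hv true)) h1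
  have h7 := zero_of (hs.A1' k q (false :: v) (len_child hs hv false)) h2
  unfold rr ESys.dA
  rw [h6, h7, h3]
  simp

theorem z_eq (k : K) : s.z k v = s.α k v * muu s k v := by
  unfold ESys.z muu
  rw [Finset.mul_sum]
  apply Finset.sum_congr rfl
  intro q _
  have := sig_al hs hv k q
  calc s.A k q v * s.B k q v = (s.A k q v / (s.α k v : ℂ) * (s.α k v : ℂ)) * s.B k q v := by
        rw [this]
    _ = _ := by ring

theorem z_true (k : K) : s.z' k (true :: v) =
    (s.α' k (true :: v) : ℂ) * (muu s k v + s.τ k v) + rho s k v + kapp s k v := by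
  unfold ESys.z' muu ESys.τ rho kapp
  rw [← Finset.sum_add_distrib, Finset.mul_sum, ← Finset.sum_add_distrib,
    ← Finset.sum_add_distrib]
  apply Finset.sum_congr rfl
  intro q _
  have h := sig_al hs hv k q
  rw [A_true hs hv, B_true hs hv, al_true hs hv]
  unfold rr
  push_cast
  linear_combination (-(s.B k q v + s.dB k q v)) * h

theorem z_false (k : K) : s.z' k (false :: v) =
    (s.α' k (false :: v) : ℂ) * (muu s k v - s.τ k v) - rho s k v + kapp s k v := by
  unfold ESys.z' muu ESys.τ rho kapp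
  rw [← Finset.sum_sub_distrib, Finset.mul_sum, ← Finset.sum_sub_distrib,
    ← Finset.sum_add_distrib]
  apply Finset.sum_congr rfl
  intro q _
  have h := sig_al hs hv k q
  rw [A_false hs hv, B_false hs hv, al_false hs hv]
  unfold rr
  push_cast
  linear_combination (-(s.B k q v - s.dB k q v)) * h

theorem norm_z'_le (k : K) {w : Node} (hw : w.length ≤ n) :
    ‖s.z' k w‖ ≤ s.α' k w * ∑ q, s.G' q w := by
  unfold ESys.z'
  refine (norm_sum_le _ _).trans ?_
  rw [Finset.mul_sum]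
  apply Finset.sum_le_sum
  intro q _
  rw [norm_mul]
  exact mul_le_mul (hs.A1' k q w hw) (hs.B1' k q w hw) (norm_nonneg _) (hs.α0' k w hw)

theorem z'_zero {k : K} {w : Node} (hw : w.length ≤ n) (h : s.α' k w = 0) : s.z' k w = 0 := by
  have := norm_z'_le hs hv k hw
  rw [h, zero_mul] at this
  exact norm_le_zero_iff.1 this

theorem z_zero {k : K} (h : s.α k v = 0) : s.z k v = 0 := by
  rw [z_eq hs hv, h]
  simp

/-- GOOD pair -/
theorem node_good {δ : ℝ} (k : K) (h0 : ‖s.z k v‖ ≤ δ * s.α k v)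
    (h1 : ∀ c : Bool, ‖s.z' k (c :: v)‖ ≤ δ * s.α' k (c :: v)) :
    s.α k v * ‖s.τ k v‖ ^ 2 ≤
      ((pH δ (s.z' k (true :: v)) (s.α' k (true :: v))
        + pH δ (s.z' k (false :: v)) (s.α' k (false :: v))) / 2 - pH δ (s.z k v) (s.α k v))
      + 2 * δ * (|s.dα k v| * ‖s.τ k v‖) + 2 * δ * ‖kapp s k v‖
      + 2 * (‖s.τ k v‖ * ‖rho s k v‖) := by
  have p0 := hs.α0 k v hv
  have p1 := hs.α0' k (true :: v) (len_child hs hv true)
  have p2 := hs.α0' k (false :: v) (len_child hs hv false)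
  rw [pH_eq p0 h0, pH_eq p1 (h1 true), pH_eq p2 (h1 false)]
  rcases eq_or_lt_of_le p0 with hz | hz
  · have e0 : s.α k v = 0 := hz.symm
    obtain ⟨e1, e2, e3⟩ := al_zero hs hv e0
    have hr : kapp s k v = 0 := by
      unfold kapp
      apply Finset.sum_eq_zero
      intro q _
      rw [rr_zero hs hv e0 q, zero_mul]
    rw [e0, e1, e2, e3, hr]
    unfold psi
    simp only [zero_mul, div_zero, abs_zero, norm_zero, mul_zero, add_zero, sub_zero, zero_div,
      zero_add]
    positivity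
  · have g := good_step (μ := muu s k v) (τ := s.τ k v) (ρ := rho s k v) (κ := kapp s k v)
      p1 p2 (z'_zero hs hv (len_child hs hv true)) (z'_zero hs hv (len_child hs hv false))
      (z_true hs hv k) (z_false hs hv k)
    have ea : (s.α' k (true :: v) + s.α' k (false :: v)) / 2 = s.α k v := (hs.αm k v hv).symm
    have ed : (s.α' k (true :: v) - s.α' k (false :: v)) / 2 = s.dα k v := rfl
    rw [ea, ed] at g
    have hmu : ‖s.z k v‖ = s.α k v * ‖muu s k v‖ := by
      rw [z_eq hs hv, norm_mul, Complex.norm_real, Real.norm_eq_abs, abs_of_pos hz]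
    have hmu2 : ‖muu s k v‖ ≤ δ := by
      rw [hmu] at h0
      nlinarith
    have epsi : psi (s.z k v) (s.α k v) = s.α k v * ‖muu s k v‖ ^ 2 := by
      unfold psi
      rw [hmu]
      field_simp
    rw [epsi]
    have n1 := norm_nonneg (s.τ k v)
    have n2 := norm_nonneg (kapp s k v)
    have n3 := abs_nonneg (s.dα k v)
    have b1 : |s.dα k v| * (‖muu s k v‖ * ‖s.τ k v‖) ≤ δ * (|s.dα k v| * ‖s.τ k v‖) := by
      calc |s.dα k v| * (‖muu s k v‖ * ‖s.τ k v‖) = ‖muu s k v‖ * (|s.dα k v| * ‖s.τ k v‖) := by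
            ring
        _ ≤ δ * (|s.dα k v| * ‖s.τ k v‖) := mul_le_mul_of_nonneg_right hmu2 (by positivity)
    have b2 : ‖muu s k v‖ * ‖kapp s k v‖ ≤ δ * ‖kapp s k v‖ :=
      mul_le_mul_of_nonneg_right hmu2 n2
    linarith

/-- BAD pair -/
theorem node_bad {δ : ℝ} (hδ : 0 ≤ δ) (k : K) :
    0 ≤ ((pH δ (s.z' k (true :: v)) (s.α' k (true :: v))
        + pH δ (s.z' k (false :: v)) (s.α' k (false :: v))) / 2 - pH δ (s.z k v) (s.α k v))
      + 2 * δ * (|s.dα k v| * ‖s.τ k v‖) + 2 * δ * ‖kapp s k v‖ := by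
  have p1 := hs.α0' k (true :: v) (len_child hs hv true)
  have p2 := hs.α0' k (false :: v) (len_child hs hv false)
  have ea : (s.α' k (true :: v) + s.α' k (false :: v)) / 2 = s.α k v := (hs.αm k v hv).symm
  have key := pH_bad (T := δ) hδ (M := s.z k v) (M0 := s.z' k (true :: v))
    (M1 := s.z' k (false :: v)) (x := (s.dα k v : ℂ) * s.τ k v + kapp s k v) p1 p2
    (z'_zero hs hv (len_child hs hv true)) (z'_zero hs hv (len_child hs hv false))
    (by rw [ea]; exact z_zero hs hv)
    (by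
      rw [z_true hs hv, z_false hs hv, z_eq hs hv, al_true hs hv, al_false hs hv]
      push_cast
      ring)
  rw [ea] at key
  have hx : ‖(s.dα k v : ℂ) * s.τ k v + kapp s k v‖ ≤ |s.dα k v| * ‖s.τ k v‖ + ‖kapp s k v‖ := by
    refine (norm_add_le _ _).trans ?_
    rw [norm_mul, Complex.norm_real, Real.norm_eq_abs]
  have := mul_le_mul_of_nonneg_left hx (by positivity : 0 ≤ 2 * δ)
  linarith

/-! ### Cauchy-Schwarz at a node -/

theorem cs_kapp : ∑ k, ‖kapp s k v‖ ≤ √(dens2 s v) * √(dens3 s v) := by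
  have h1 : ∑ k, ‖kapp s k v‖ ≤ ∑ p : K × Q, ‖rr s p.1 p.2 v‖ * ‖s.dB p.1 p.2 v‖ := by
    rw [Fintype.sum_prod_type]
    apply Finset.sum_le_sum
    intro k _
    unfold kapp
    refine (norm_sum_le _ _).trans (le_of_eq ?_)
    apply Finset.sum_congr rfl
    intro q _
    exact norm_mul _ _
  have h2 := sum_cs (Finset.univ : Finset (K × Q)) (fun p => ‖rr s p.1 p.2 v‖)
    (fun p => ‖s.dB p.1 p.2 v‖) (fun p => s.α p.1 v / s.G p.2 v)
    (fun p _ => div_nonneg (hs.α0 p.1 v hv) (hs.G0 p.2 v hv))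
  refine h1.trans ?_
  -- terms with `G = 0` are removed
  set F : Finset (K × Q) := Finset.univ.filter (fun p => s.G p.2 v ≠ 0) with hF
  have h3 : ∑ p : K × Q, ‖rr s p.1 p.2 v‖ * ‖s.dB p.1 p.2 v‖ =
      ∑ p ∈ F, ‖rr s p.1 p.2 v‖ * ‖s.dB p.1 p.2 v‖ := by
    symm
    apply Finset.sum_subset (Finset.subset_univ _)
    intro p _ hp
    have : s.G p.2 v = 0 := by
      by_contra hne
      exact hp (Finset.mem_filter.2 ⟨Finset.mem_univ _, hne⟩)
    rw [(G_zero hs hv this p.1).1]
    simp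
  rw [h3]
  have h4 := sum_cs F (fun p => ‖rr s p.1 p.2 v‖)
    (fun p => ‖s.dB p.1 p.2 v‖) (fun p => s.α p.1 v / s.G p.2 v)
    (fun p _ => div_nonneg (hs.α0 p.1 v hv) (hs.G0 p.2 v hv))
    (fun p hp h0 => by
      have hG : s.G p.2 v ≠ 0 := (Finset.mem_filter.1 hp).2
      have hα : s.α p.1 v = 0 := by
        rcases div_eq_zero_iff.1 h0 with h | h
        · exact h
        · exact absurd h hG
      show ‖rr s p.1 p.2 v‖ = 0
      rw [rr_zero hs hv hα p.2, norm_zero])
  refine h4.trans ?_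
  apply mul_le_mul _ _ (Real.sqrt_nonneg _) (Real.sqrt_nonneg _)
  · apply Real.sqrt_le_sqrt
    unfold dens2
    rw [← Fintype.sum_prod_type (f := fun p : K × Q =>
      s.G p.2 v * ‖rr s p.1 p.2 v‖ ^ 2 / s.α p.1 v)]
    refine (Finset.sum_le_sum (fun p _ => le_of_eq ?_)).trans
      (Finset.sum_le_sum_of_subset_of_nonneg (Finset.subset_univ _) (fun p _ _ => ?_))
    · show ‖rr s p.1 p.2 v‖ ^ 2 / (s.α p.1 v / s.G p.2 v) = _
      rw [div_div_eq_mul_div]
      ring
    · have := hs.α0 p.1 v hv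
      have := hs.G0 p.2 v hv
      positivity
  · apply Real.sqrt_le_sqrt
    unfold dens3
    rw [← Fintype.sum_prod_type (f := fun p : K × Q =>
      s.α p.1 v * ‖s.dB p.1 p.2 v‖ ^ 2 / s.G p.2 v)]
    refine (Finset.sum_le_sum (fun p _ => le_of_eq ?_)).trans
      (Finset.sum_le_sum_of_subset_of_nonneg (Finset.subset_univ _) (fun p _ _ => ?_))
    · show s.α p.1 v / s.G p.2 v * ‖s.dB p.1 p.2 v‖ ^ 2 = _
      ring
    · have := hs.α0 p.1 v hv
      have := hs.G0 p.2 v hv
      positivity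

/-- `‖ρ_k‖²/α_k ≤ 2 ∑_q G ‖r‖²/α` -/
theorem rho_sq (k : K) : ‖rho s k v‖ ^ 2 / s.α k v ≤
    2 * ∑ q, s.G q v * ‖rr s k q v‖ ^ 2 / s.α k v := by
  have p0 := hs.α0 k v hv
  have hG := hs.Gsum v hv
  have h1 : ‖rho s k v‖ ≤ ∑ q, ‖rr s k q v‖ * s.G q v := by
    unfold rho
    refine (norm_sum_le _ _).trans (Finset.sum_le_sum (fun q _ => ?_))
    rw [norm_mul]
    exact mul_le_mul_of_nonneg_left (hs.B1 k q v hv) (norm_nonneg _)
  have h2 : (∑ q, ‖rr s k q v‖ * s.G q v) ^ 2 ≤
      (∑ q, s.G q v) * ∑ q, s.G q v * ‖rr s k q v‖ ^ 2 := by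
    have := Finset.sum_mul_sq_le_sq_mul_sq Finset.univ (fun q => √(s.G q v))
      (fun q => √(s.G q v) * ‖rr s k q v‖)
    have e1 : ∀ q, √(s.G q v) * (√(s.G q v) * ‖rr s k q v‖) = ‖rr s k q v‖ * s.G q v := by
      intro q
      rw [← mul_assoc, Real.mul_self_sqrt (hs.G0 q v hv), mul_comm]
    have e2 : ∀ q, √(s.G q v) ^ 2 = s.G q v := fun q => Real.sq_sqrt (hs.G0 q v hv)
    simp only [e1, mul_pow, e2] at this
    exact this
  have h3 : ‖rho s k v‖ ^ 2 ≤ 2 * ∑ q, s.G q v * ‖rr s k q v‖ ^ 2 := by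
    have h4 : 0 ≤ ∑ q, s.G q v * ‖rr s k q v‖ ^ 2 :=
      Finset.sum_nonneg fun q _ => mul_nonneg (hs.G0 q v hv) (by positivity)
    calc ‖rho s k v‖ ^ 2 ≤ (∑ q, ‖rr s k q v‖ * s.G q v) ^ 2 :=
          pow_le_pow_left₀ (norm_nonneg _) h1 2
      _ ≤ _ := h2
      _ ≤ _ := mul_le_mul_of_nonneg_right hG h4
  calc ‖rho s k v‖ ^ 2 / s.α k v ≤ (2 * ∑ q, s.G q v * ‖rr s k q v‖ ^ 2) / s.α k v :=
        div_le_div_of_nonneg_right h3 p0
    _ = _ := by
      rw [mul_div_assoc, Finset.sum_div]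

/-- `∑_k ‖τ‖ ‖ρ‖` over any set of classes -/
theorem cs_rho (P : K → Prop) [DecidablePred P] :
    ∑ k, (if P k then ‖s.τ k v‖ * ‖rho s k v‖ else 0) ≤
      √(∑ k, if P k then s.α k v * ‖s.τ k v‖ ^ 2 else 0) * √(2 * dens2 s v) := by
  rw [← Finset.sum_filter, ← Finset.sum_filter]
  have h := sum_cs (Finset.univ.filter P) (fun k => ‖rho s k v‖) (fun k => ‖s.τ k v‖)
    (fun k => s.α k v) (fun k _ => hs.α0 k v hv)
    (fun k _ h0 => by
      show ‖rho s k v‖ = 0
      unfold rho
      rw [Finset.sum_eq_zero (fun q _ => by rw [rr_zero hs hv h0 q, zero_mul]), norm_zero])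
  calc ∑ k ∈ Finset.univ.filter P, ‖s.τ k v‖ * ‖rho s k v‖
      = ∑ k ∈ Finset.univ.filter P, ‖rho s k v‖ * ‖s.τ k v‖ :=
        Finset.sum_congr rfl fun k _ => mul_comm _ _
    _ ≤ _ := h
    _ ≤ _ := by
      rw [mul_comm]
      apply mul_le_mul_of_nonneg_left _ (Real.sqrt_nonneg _)
      apply Real.sqrt_le_sqrt
      unfold dens2
      rw [Finset.mul_sum]
      refine (Finset.sum_le_sum (fun k _ => rho_sq hs hv k)).trans
        (Finset.sum_le_sum_of_subset_of_nonneg (Finset.subset_univ _) (fun k _ _ => ?_))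
      have : 0 ≤ ∑ q, s.G q v * ‖rr s k q v‖ ^ 2 / s.α k v :=
        Finset.sum_nonneg fun q _ =>
          div_nonneg (mul_nonneg (hs.G0 q v hv) (by positivity)) (hs.α0 k v hv)
      linarith

/-- `∑_k |dα| ‖τ‖` -/
theorem cs_tau : ∑ k, |s.dα k v| * ‖s.τ k v‖ ≤
    √(∑ k, s.dα k v ^ 2 / s.α k v) * √(∑ k, s.α k v * ‖s.τ k v‖ ^ 2) := by
  have h := sum_cs Finset.univ (fun k => |s.dα k v|) (fun k => ‖s.τ k v‖)
    (fun k => s.α k v) (fun k _ => hs.α0 k v hv)
    (fun k _ h0 => by
      show |s.dα k v| = 0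
      rw [(al_zero hs hv h0).2.2, abs_zero])
  simpa only [sq_abs] using h

end node

/-! ## the global estimate -/

/-- potential -/
noncomputable def Phi (s : ESys K Q) (δ : ℝ) (v : Node) : ℝ := ∑ k, pH δ (s.z k v) (s.α k v)

/-- potential on arrival -/
noncomputable def Phi' (s : ESys K Q) (δ : ℝ) (v : Node) : ℝ := ∑ k, pH δ (s.z' k v) (s.α' k v)

theorem Phi'_le {s : ESys K Q} {n : ℕ} (hs : s.Ok n) {δ : ℝ} (hδ : 0 ≤ δ) {w : Node}
    (hw : w.length ≤ n) : Phi' s δ w ≤ 4 * δ := by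
  unfold Phi'
  have hz : ∀ k, ‖s.z' k w‖ ≤ s.α' k w * 2 := by
    intro k
    unfold ESys.z'
    refine (norm_sum_le _ _).trans ?_
    calc ∑ q, ‖s.A' k q w * s.B' k q w‖ ≤ ∑ q, s.α' k w * s.G' q w := by
          apply Finset.sum_le_sum
          intro q _
          rw [norm_mul]
          exact mul_le_mul (hs.A1' k q w hw) (hs.B1' k q w hw) (norm_nonneg _) (hs.α0' k w hw)
      _ = s.α' k w * ∑ q, s.G' q w := by rw [Finset.mul_sum]
      _ ≤ s.α' k w * 2 := mul_le_mul_of_nonneg_left (hs.Gsum' w hw) (hs.α0' k w hw)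
  have hz0 : ∀ k, s.α' k w = 0 → s.z' k w = 0 := by
    intro k h
    have := hz k
    rw [h, zero_mul] at this
    exact norm_le_zero_iff.1 this
  calc ∑ k, pH δ (s.z' k w) (s.α' k w) ≤ ∑ k, 2 * δ * (s.α' k w * 2) := by
        apply Finset.sum_le_sum
        intro k _
        refine (pH_le hδ (hs.α0' k w hw) (hz0 k)).trans ?_
        exact mul_le_mul_of_nonneg_left (hz k) (by positivity)
    _ = 4 * δ * ∑ k, s.α' k w := by
        rw [Finset.mul_sum]
        apply Finset.sum_congr rfl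
        intro k _
        ring
    _ ≤ 4 * δ * 1 := mul_le_mul_of_nonneg_left (hs.αsum' w hw) (by positivity)
    _ = 4 * δ := mul_one _

theorem z'_zero' {s : ESys K Q} {n : ℕ} (hs : s.Ok n) {k : K} {w : Node} (hw : w.length ≤ n)
    (h : s.α' k w = 0) : s.z' k w = 0 := by
  unfold ESys.z'
  apply Finset.sum_eq_zero
  intro q _
  rw [zero_of (hs.A1' k q w hw) h, zero_mul]

/-- loss of the potential by the modifications at a node -/
theorem Phi_loss {s : ESys K Q} {n : ℕ} (hs : s.Ok n) {δ : ℝ} (hδ : 0 ≤ δ) {w : Node}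
    (hw : w.length < n) :
    Phi' s δ w - Phi s δ w ≤
      4 * δ * (∑ k, max (s.α' k w - s.α k w) 0) + 2 * δ * (∑ q, (s.G' q w - s.G q w)) := by
  have hGr : 0 ≤ ∑ q, (s.G' q w - s.G q w) :=
    Finset.sum_nonneg fun q _ => by have := hs.Gr q w hw; linarith
  have hk : ∀ k, pH δ (s.z' k w) (s.α' k w) - pH δ (s.z k w) (s.α k w) ≤
      4 * δ * max (s.α' k w - s.α k w) 0 + 2 * δ * (s.α k w * ∑ q, (s.G' q w - s.G q w)) := by
    intro k
    have hα := hs.α0 k w hw
    have hm := le_max_right (s.α' k w - s.α k w) 0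
    rcases hs.xr k w hw with h | ⟨h1, h2, h3⟩
    · have e : pH δ (s.z' k w) (s.α' k w) = 0 := by
        unfold pH
        rw [h, zero_mul]
      have := pH_nonneg hδ (s.z k w) hα
      have : 0 ≤ 4 * δ * max (s.α' k w - s.α k w) 0 := by positivity
      have : 0 ≤ 2 * δ * (s.α k w * ∑ q, (s.G' q w - s.G q w)) := by positivity
      rw [e]
      linarith
    · have hj := pH_jump hδ (M := s.z k w) (M' := s.z' k w) hα h2 (z_zero hs hw)
        (z'_zero' hs hw.le)
      refine hj.trans ?_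
      have hz : ‖s.z' k w - s.z k w‖ ≤ (s.α' k w - s.α k w) * 2 +
          s.α k w * ∑ q, (s.G' q w - s.G q w) := by
        unfold ESys.z' ESys.z
        rw [← Finset.sum_sub_distrib]
        refine (norm_sum_le _ _).trans ?_
        calc ∑ q, ‖s.A' k q w * s.B' k q w - s.A k q w * s.B k q w‖
            ≤ ∑ q, ((s.α' k w - s.α k w) * s.G' q w + s.α k w * (s.G' q w - s.G q w)) := by
              apply Finset.sum_le_sum
              intro q _
              have e : s.A' k q w * s.B' k q w - s.A k q w * s.B k q w =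
                  (s.A' k q w - s.A k q w) * s.B' k q w
                    + s.A k q w * (s.B' k q w - s.B k q w) := by ring
              rw [e]
              refine (norm_add_le _ _).trans ?_
              rw [norm_mul, norm_mul]
              apply add_le_add
              · exact mul_le_mul (h1 q) (hs.B1' k q w hw.le) (norm_nonneg _) (by linarith)
              · exact mul_le_mul (hs.A1 k q w hw) (h3 q) (norm_nonneg _) hα
          _ = (s.α' k w - s.α k w) * ∑ q, s.G' q w
                + s.α k w * ∑ q, (s.G' q w - s.G q w) := by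
              rw [Finset.sum_add_distrib, Finset.mul_sum, Finset.mul_sum]
          _ ≤ _ := by
              have := mul_le_mul_of_nonneg_left (hs.Gsum' w hw.le)
                (by linarith : 0 ≤ s.α' k w - s.α k w)
              linarith
      have hmx : s.α' k w - s.α k w ≤ max (s.α' k w - s.α k w) 0 := le_max_left _ _
      calc 2 * δ * ‖s.z' k w - s.z k w‖ ≤ 2 * δ * ((s.α' k w - s.α k w) * 2 +
          s.α k w * ∑ q, (s.G' q w - s.G q w)) := mul_le_mul_of_nonneg_left hz (by positivity)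
        _ ≤ _ := by
          have := mul_le_mul_of_nonneg_left hmx (by positivity : 0 ≤ 4 * δ)
          linarith
  unfold Phi' Phi
  rw [← Finset.sum_sub_distrib]
  refine (Finset.sum_le_sum fun k _ => hk k).trans ?_
  rw [Finset.sum_add_distrib, ← Finset.mul_sum, ← Finset.mul_sum, ← Finset.sum_mul]
  have h5 := mul_le_mul_of_nonneg_right (hs.αsum w hw) hGr
  have h6 := mul_le_mul_of_nonneg_left h5 (by positivity : 0 ≤ 2 * δ)
  linarith

/-- total removed y-mass -/
theorem S_removed {s : ESys K Q} {n : ℕ} (hs : s.Ok n) :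
    S n (fun v => ∑ q, (s.G' q v - s.G q v)) [] ≤ 2 := by
  have h := S_tele n (f := fun v => ∑ q, (s.G' q v - s.G q v)) (g := fun _ => 0)
    (Φ := fun v => -∑ q, s.G' q v) [] (by
      intro w hw
      have hw' : w.length < n := by simpa using hw
      have e : ∑ q, s.G q w = (∑ q, s.G' q (true :: w) + ∑ q, s.G' q (false :: w)) / 2 := by
        rw [← Finset.sum_add_distrib, Finset.sum_div]
        exact Finset.sum_congr rfl fun q _ => hs.Gm q w hw'
      rw [Finset.sum_sub_distrib, e]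
      linarith)
  have h2 : Lf n (fun v => -∑ q, s.G' q v) [] ≤ 0 := by
    apply Lf_le
    intro w hw
    have : 0 ≤ ∑ q, s.G' q w :=
      Finset.sum_nonneg fun q _ => hs.G0' q w (by simpa using hw)
    linarith
  have h3 : S n (fun _ => (0 : ℝ)) ([] : Node) = 0 := by
    have := S_smul n 0 (fun _ => 0) ([] : Node)
    simpa using this
  have h4 := hs.Gsum' [] (by simp)
  rw [h3] at h
  linarith

/-- **(e4)** -/
theorem e4 {s : ESys K Q} {n : ℕ} {good : K → Node → Prop} [∀ k v, Decidable (good k v)]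
    {h m δ b E2 E3 : ℝ} (hs : s.Ok n) (hh : 0 ≤ h) (hδ : 0 ≤ δ) (hb : 0 ≤ b)
    (hE2 : 0 ≤ E2) (hE3 : 0 ≤ E3)
    (H1 : S n (fun v => ∑ k, s.dα k v ^ 2 / s.α k v) [] ≤ 2 * h)
    (Hm : S n (fun v => ∑ k, max (s.α' k v - s.α k v) 0) [] ≤ m)
    (Hg : ∀ k v, v.length < n → good k v → ‖s.z k v‖ ≤ δ * s.α k v ∧
      ∀ c : Bool, ‖s.z' k (c :: v)‖ ≤ δ * s.α' k (c :: v))
    (Hb : S n (fun v => ∑ k, if good k v then 0 else s.α k v * ‖s.τ k v‖ ^ 2) [] ≤ b)
    (H2 : S n (dens2 s) [] ≤ E2) (H3 : S n (dens3 s) [] ≤ E3) :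
    S n (fun v => ∑ k, if good k v then s.α k v * ‖s.τ k v‖ ^ 2 else 0) [] ≤
      16 * (δ * (1 + m) + δ ^ 2 * h + E2 + δ * √(E2 * E3)) + b := by
  set f : Node → ℝ := fun v => ∑ k, if good k v then s.α k v * ‖s.τ k v‖ ^ 2 else 0 with hf
  set fb : Node → ℝ := fun v => ∑ k, if good k v then 0 else s.α k v * ‖s.τ k v‖ ^ 2 with hfb
  set g1 : Node → ℝ := fun v => ∑ k, |s.dα k v| * ‖s.τ k v‖ with hg1
  set g2 : Node → ℝ := fun v => ∑ k, ‖kapp s k v‖ with hg2
  set g3 : Node → ℝ := fun v => ∑ k, (if good k v then ‖s.τ k v‖ * ‖rho s k v‖ else 0) with hg3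
  set l1 : Node → ℝ := fun v => ∑ k, max (s.α' k v - s.α k v) 0 with hl1
  set l2 : Node → ℝ := fun v => ∑ q, (s.G' q v - s.G q v) with hl2
  have lt_of : ∀ w : Node, w.length < n + ([] : Node).length → w.length < n := by
    intro w hw
    simpa using hw
  have le_of : ∀ w : Node, w.length ≤ n + ([] : Node).length → w.length ≤ n := by
    intro w hw
    simpa using hw
  rcases Nat.eq_zero_or_pos n with hn0 | hn
  · rw [hn0]
    have : 0 ≤ m := by
      rw [hn0] at Hm
      simpa [S] using Hm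
    simp only [S]
    positivity
  have hm0 : 0 ≤ m := by
    refine le_trans ?_ Hm
    apply S_nonneg
    intro w _
    exact Finset.sum_nonneg fun k _ => le_max_right _ _
  -- telescoping
  have key : S n f [] ≤ 4 * δ + S n (fun v => 2 * δ * g1 v + (2 * δ * g2 v + 2 * g3 v)) []
      + S n (fun v => 4 * δ * l1 v + 2 * δ * l2 v) [] := by
    apply S_tele2 n (Φ := Phi s δ) (Φ' := Phi' s δ) (by positivity) []
    · intro w hw
      have hw' := lt_of w hw
      have hk : ∀ k, (if good k w then s.α k w * ‖s.τ k w‖ ^ 2 else 0) ≤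
          ((pH δ (s.z' k (true :: w)) (s.α' k (true :: w))
            + pH δ (s.z' k (false :: w)) (s.α' k (false :: w))) / 2 - pH δ (s.z k w) (s.α k w))
          + (2 * δ * (|s.dα k w| * ‖s.τ k w‖) + (2 * δ * ‖kapp s k w‖
          + 2 * (if good k w then ‖s.τ k w‖ * ‖rho s k w‖ else 0))) := by
        intro k
        split_ifs with hgd
        · obtain ⟨a1, a2⟩ := Hg k w hw' hgd
          have := node_good hs hw' k a1 a2
          linarith
        · have := node_bad hs hw' hδ k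
          linarith
      refine (Finset.sum_le_sum fun k _ => hk k).trans (le_of_eq ?_)
      rw [Finset.sum_add_distrib, Finset.sum_sub_distrib, ← Finset.sum_div,
        Finset.sum_add_distrib, Finset.sum_add_distrib, Finset.sum_add_distrib,
        ← Finset.mul_sum, ← Finset.mul_sum, ← Finset.mul_sum]
      rfl
    · intro w _ hw
      exact Phi_loss hs hδ (lt_of w hw)
    · intro w hw
      have hw' := lt_of w hw
      have h1 : 0 ≤ l1 w := Finset.sum_nonneg fun k _ => le_max_right _ _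
      have h2 : 0 ≤ l2 w := Finset.sum_nonneg fun q _ => by have := hs.Gr q w hw'; linarith
      positivity
    · unfold Phi
      apply Finset.sum_nonneg
      intro k _
      exact pH_nonneg hδ _ (hs.α0 k [] (by simpa using hn))
    · intro w hw
      exact Phi'_le hs hδ (le_of w hw)
  -- the error terms
  have eg : S n (fun v => 2 * δ * g1 v + (2 * δ * g2 v + 2 * g3 v)) [] =
      2 * δ * S n g1 [] + (2 * δ * S n g2 [] + 2 * S n g3 []) := by
    rw [S_add, S_smul, S_add, S_smul, S_smul]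
  have el : S n (fun v => 4 * δ * l1 v + 2 * δ * l2 v) [] =
      4 * δ * S n l1 [] + 2 * δ * S n l2 [] := by
    rw [S_add, S_smul, S_smul]
  have hl2' : S n l2 [] ≤ 2 := S_removed hs
  -- E := S f
  set E := S n f [] with hE
  have hfn : ∀ w : Node, w.length < n + ([] : Node).length → 0 ≤ f w := by
    intro w hw
    apply Finset.sum_nonneg
    intro k _
    have := hs.α0 k w (lt_of w hw)
    split_ifs <;> positivity
  have hfbn : ∀ w : Node, w.length < n + ([] : Node).length → 0 ≤ fb w := by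
    intro w hw
    apply Finset.sum_nonneg
    intro k _
    have := hs.α0 k w (lt_of w hw)
    split_ifs <;> positivity
  have hE0 : 0 ≤ E := S_nonneg n [] hfn
  have hall : ∀ w, ∑ k, s.α k w * ‖s.τ k w‖ ^ 2 = f w + fb w := by
    intro w
    rw [hf, hfb]
    simp only
    rw [← Finset.sum_add_distrib]
    apply Finset.sum_congr rfl
    intro k _
    split_ifs <;> ring
  have hd2 : ∀ w : Node, w.length < n + ([] : Node).length → 0 ≤ dens2 s w := by
    intro w hw
    have hw' := lt_of w hw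
    exact Finset.sum_nonneg fun k _ => Finset.sum_nonneg fun q _ =>
      div_nonneg (mul_nonneg (hs.G0 q w hw') (by positivity)) (hs.α0 k w hw')
  have hd3 : ∀ w : Node, w.length < n + ([] : Node).length → 0 ≤ dens3 s w := by
    intro w hw
    have hw' := lt_of w hw
    exact Finset.sum_nonneg fun k _ => Finset.sum_nonneg fun q _ =>
      div_nonneg (mul_nonneg (hs.α0 k w hw') (by positivity)) (hs.G0 q w hw')
  have c1 : S n g1 [] ≤ √(2 * h) * √(E + b) := by
    have := S_cs n (f := g1) (X := fun v => ∑ k, s.dα k v ^ 2 / s.α k v)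
      (Y := fun v => f v + fb v) []
      (fun w hw => Finset.sum_nonneg fun k _ => by
        have := hs.α0 k w (lt_of w hw); positivity)
      (fun w hw => add_nonneg (hfn w hw) (hfbn w hw))
      (fun w _ => Finset.sum_nonneg fun k _ => by positivity)
      (fun w hw => by
        have := cs_tau hs (lt_of w hw)
        rw [hall] at this
        exact this)
    refine this.trans ?_
    apply mul_le_mul (Real.sqrt_le_sqrt H1) _ (Real.sqrt_nonneg _) (Real.sqrt_nonneg _)
    apply Real.sqrt_le_sqrt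
    rw [S_add]
    linarith
  have c2 : S n g2 [] ≤ √E2 * √E3 := by
    have := S_cs n (f := g2) (X := dens2 s) (Y := dens3 s) [] hd2 hd3
      (fun w _ => Finset.sum_nonneg fun k _ => norm_nonneg _)
      (fun w hw => cs_kapp hs (lt_of w hw))
    refine this.trans ?_
    exact mul_le_mul (Real.sqrt_le_sqrt H2) (Real.sqrt_le_sqrt H3) (Real.sqrt_nonneg _)
      (Real.sqrt_nonneg _)
  have c3 : S n g3 [] ≤ √E * √(2 * E2) := by
    have := S_cs n (f := g3) (X := f) (Y := fun v => 2 * dens2 s v) [] hfn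
      (fun w hw => by have := hd2 w hw; linarith)
      (fun w _ => Finset.sum_nonneg fun k _ => by split_ifs <;> positivity)
      (fun w hw => cs_rho hs (lt_of w hw) (fun k => good k w))
    refine this.trans ?_
    apply mul_le_mul_of_nonneg_left _ (Real.sqrt_nonneg _)
    apply Real.sqrt_le_sqrt
    rw [S_smul]
    linarith
  -- solve
  rw [eg, el] at key
  have q1 : √(2 * h) ^ 2 = 2 * h := Real.sq_sqrt (by positivity)
  have q2 : √(E + b) ^ 2 = E + b := Real.sq_sqrt (by positivity)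
  have q3 : √E ^ 2 = E := Real.sq_sqrt hE0
  have q4 : √(2 * E2) ^ 2 = 2 * E2 := Real.sq_sqrt (by positivity)
  have q5 : √E2 * √E3 = √(E2 * E3) := (Real.sqrt_mul hE2 E3).symm
  have t1 : 2 * δ * S n g1 [] ≤ (E + b) / 4 + 8 * δ ^ 2 * h := by
    have : 2 * δ * S n g1 [] ≤ 2 * δ * (√(2 * h) * √(E + b)) :=
      mul_le_mul_of_nonneg_left c1 (by positivity)
    nlinarith [sq_nonneg (√(E + b) / 2 - 2 * δ * √(2 * h))]
  have t2 : 2 * δ * S n g2 [] ≤ 2 * δ * √(E2 * E3) := by
    rw [← q5]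
    exact mul_le_mul_of_nonneg_left c2 (by positivity)
  have t3 : 2 * S n g3 [] ≤ E / 4 + 8 * E2 := by
    nlinarith [sq_nonneg (√E / 2 - 2 * √(2 * E2))]
  have t4 : 4 * δ * S n l1 [] ≤ 4 * δ * m := mul_le_mul_of_nonneg_left Hm (by positivity)
  have t5 : 2 * δ * S n l2 [] ≤ 2 * δ * 2 := mul_le_mul_of_nonneg_left hl2' (by positivity)
  have t6 : 0 ≤ δ * √(E2 * E3) := by positivity
  have t7 : 0 ≤ δ * m := by positivity
  have t8 : 0 ≤ δ ^ 2 * h := by positivity
  nlinarith [key, t1, t2, t3, t4, t5]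

end Vale.Agent.P091.LE.H43
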